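import Mathlib
import Vale.Agent.Lib.P097.Defs
import Vale.Agent.Lib.P097.LinearMain

namespace Vale.Agent.Results.P097.LinearIntegralEllipse

open Vale.Agent.Lib.P097

/-- A closed unit-speed plane curve of positive curvature whose billiard map preserves, along
all short chords, a nonzero function of the form `a(s) * sin φ + b(s) * cos φ` is an ellipse. -/
theorem result (γ T : ℝ → ℂ) (κ a b : ℝ → ℝ) (L ε : ℝ)
    (hL : 0 < L) (hper : ∀ s, γ (s + L) = γ s)
    (hγ : ∀ s, HasDerivAt γ (T s) s) (hunit : ∀ s, ‖T s‖ = 1)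
    (hT : ∀ s, HasDerivAt T ((κ s : ℂ) * (Complex.I * T s)) s) (hκ : ∀ s, 0 < κ s)
    (hab : ∃ s, a s ≠ 0 ∨ b s ≠ 0) (hε : 0 < ε)
    (hinv : ∀ s t, |s - t| < ε →
      a s * dot (γ t - γ s) (Complex.I * T s) + b s * dot (γ t - γ s) (T s) =
        a t * dot (γ s - γ t) (Complex.I * T t) + b t * dot (γ t - γ s) (T t)) :
    ∃ (c : ℂ) (α β δ : ℝ), 0 < α ∧ 0 < α * δ - β ^ 2 ∧
      Set.range γ = {z : ℂ | α * (z - c).re ^ 2 + 2 * β * (z - c).re * (z - c).im
        + δ * (z - c).im ^ 2 = 1} :=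
  ellipse_of_linear_integral γ T κ a b L ε hL hper hγ hunit hT hκ hab hε hinv

end Vale.Agent.Results.P097.LinearIntegralEllipse
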