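import Mathlib
import Vale.Agent.Lib.P097.Defs
import Vale.Agent.Lib.P097.LinearMain
import Vale.Agent.Lib.P097.EvenQuadGenMain

namespace Vale.Agent.Results.P097.LinearOrQuadraticIntegral

open Vale.Agent.Lib.P097

/-- A closed unit-speed plane curve of positive curvature whose billiard map preserves, along
all short chords, either a nonzero function of the form `a(s) * sin φ + b(s) * cos φ`, or (the
curvature being bounded) a non-constant function of the form
`lam(s) * cos^2 φ + nu(s) * sin^2 φ`, is an ellipse. -/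
theorem result (γ T : ℝ → ℂ) (κ : ℝ → ℝ) (L ε : ℝ)
    (hL : 0 < L) (hper : ∀ s, γ (s + L) = γ s)
    (hγ : ∀ s, HasDerivAt γ (T s) s) (hunit : ∀ s, ‖T s‖ = 1)
    (hT : ∀ s, HasDerivAt T ((κ s : ℂ) * (Complex.I * T s)) s) (hκ : ∀ s, 0 < κ s)
    (hε : 0 < ε)
    (hint : (∃ a b : ℝ → ℝ, (∃ s, a s ≠ 0 ∨ b s ≠ 0) ∧ ∀ s t, |s - t| < ε →
        a s * dot (γ t - γ s) (Complex.I * T s) + b s * dot (γ t - γ s) (T s) =
          a t * dot (γ s - γ t) (Complex.I * T t) + b t * dot (γ t - γ s) (T t)) ∨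
      (∃ (K : ℝ) (lam nu : ℝ → ℝ), (∀ s, κ s ≤ K) ∧ (∃ s, lam s ≠ nu s) ∧
        ∀ s t, |s - t| < ε →
          lam s * dot (γ t - γ s) (T s) ^ 2 + nu s * dot (γ t - γ s) (Complex.I * T s) ^ 2 =
            lam t * dot (γ t - γ s) (T t) ^ 2 +
              nu t * dot (γ t - γ s) (Complex.I * T t) ^ 2)) :
    ∃ (c : ℂ) (α β δ : ℝ), 0 < α ∧ 0 < α * δ - β ^ 2 ∧
      Set.range γ = {z : ℂ | α * (z - c).re ^ 2 + 2 * β * (z - c).re * (z - c).im
        + δ * (z - c).im ^ 2 = 1} := by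
  rcases hint with ⟨a, b, hab, hinv⟩ | ⟨K, lam, nu, hK, hne, hinv⟩
  · exact ellipse_of_linear_integral γ T κ a b L ε hL hper hγ hunit hT hκ hab hε hinv
  · exact ellipse_of_even_quadratic_gen γ T κ lam nu L ε K hL hper hγ hunit hT hκ hK hne hε hinv

end Vale.Agent.Results.P097.LinearOrQuadraticIntegral
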