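import Mathlib
import Vale.Agent.Lib.P097.Defs
import Vale.Agent.Lib.P097.EvenQuadGenMain

namespace Vale.Agent.Results.P097.QuadraticIntegralEllipse

open Vale.Agent.Lib.P097

/-- A closed unit-speed plane curve of positive bounded curvature whose billiard map preserves,
along all short chords, a non-constant function of the form
`lam(s) * cos^2 φ + nu(s) * sin^2 φ` is an ellipse. -/
theorem result (γ T : ℝ → ℂ) (κ lam nu : ℝ → ℝ) (L ε K : ℝ)
    (hL : 0 < L) (hper : ∀ s, γ (s + L) = γ s)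
    (hγ : ∀ s, HasDerivAt γ (T s) s) (hunit : ∀ s, ‖T s‖ = 1)
    (hT : ∀ s, HasDerivAt T ((κ s : ℂ) * (Complex.I * T s)) s) (hκ : ∀ s, 0 < κ s)
    (hK : ∀ s, κ s ≤ K)
    (hne : ∃ s, lam s ≠ nu s) (hε : 0 < ε)
    (hinv : ∀ s t, |s - t| < ε →
      lam s * dot (γ t - γ s) (T s) ^ 2 + nu s * dot (γ t - γ s) (Complex.I * T s) ^ 2 =
        lam t * dot (γ t - γ s) (T t) ^ 2 + nu t * dot (γ t - γ s) (Complex.I * T t) ^ 2) :
    ∃ (c : ℂ) (α β δ : ℝ), 0 < α ∧ 0 < α * δ - β ^ 2 ∧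
      Set.range γ = {z : ℂ | α * (z - c).re ^ 2 + 2 * β * (z - c).re * (z - c).im
        + δ * (z - c).im ^ 2 = 1} :=
  ellipse_of_even_quadratic_gen γ T κ lam nu L ε K hL hper hγ hunit hT hκ hK hne hε hinv

end Vale.Agent.Results.P097.QuadraticIntegralEllipse
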