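import Mathlib
import Vale.Agent.Lib.P097.Defs
import Vale.Agent.Lib.P097.Main

namespace Vale.Agent.Results.P097.SineIntegralEllipse

open Vale.Agent.Lib.P097

/-- A closed unit-speed plane curve of positive curvature whose billiard map preserves a
function of the form `f(s) * sin δ` (with `f > 0`) along all short chords is an ellipse. -/
theorem result (γ T : ℝ → ℂ) (κ f : ℝ → ℝ) (L ε : ℝ)
    (hL : 0 < L) (hper : ∀ s, γ (s + L) = γ s)
    (hγ : ∀ s, HasDerivAt γ (T s) s) (hunit : ∀ s, ‖T s‖ = 1)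
    (hT : ∀ s, HasDerivAt T ((κ s : ℂ) * (Complex.I * T s)) s) (hκ : ∀ s, 0 < κ s)
    (hf : ∀ s, 0 < f s) (hε : 0 < ε)
    (hinv : ∀ s t, |s - t| < ε →
      f s * dot (γ t - γ s) (Complex.I * T s) = f t * dot (γ s - γ t) (Complex.I * T t)) :
    ∃ (c : ℂ) (α β δ : ℝ), 0 < α ∧ 0 < α * δ - β ^ 2 ∧
      Set.range γ = {z : ℂ | α * (z - c).re ^ 2 + 2 * β * (z - c).re * (z - c).im
        + δ * (z - c).im ^ 2 = 1} := by
  obtain ⟨α, β, δ, b1, b2, h⟩ := global_affine γ T (fun u => (f u : ℂ) * (Complex.I * T u)) κ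
    hγ hunit hT (fun s => (hκ s).ne') ε hε
    (by
      intro s t hst
      have := hinv s t hst
      simp only [dot, Complex.sub_re, Complex.sub_im, Complex.add_re, Complex.add_im,
        Complex.mul_re, Complex.mul_im, Complex.ofReal_re, Complex.ofReal_im,
        Complex.I_re, Complex.I_im] at this ⊢
      linear_combination this)
  apply ellipse_of_affine γ T κ f L hL hper hγ hunit hT hκ hf α β δ b1 b2
  intro t
  obtain ⟨e1, e2⟩ := h t
  simp only [Complex.mul_re, Complex.mul_im, Complex.ofReal_re, Complex.ofReal_im,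
    Complex.I_re, Complex.I_im] at e1 e2
  constructor <;> linarith

end Vale.Agent.Results.P097.SineIntegralEllipse
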